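import Vale.Agent.P295.LND

/-! Commutative algebra helpers. -/

namespace Vale.Agent.P295

open Polynomial

universe u

section Hopf

/-- A surjective endomorphism of a Noetherian ring is injective. -/
theorem injective_of_surjective_end {R : Type*} [CommRing R] [IsNoetherianRing R] (f : R →+* R)
    (hf : Function.Surjective f) : Function.Injective f := by
  let K : ℕ →o Ideal R :=
    { toFun := fun n => RingHom.ker (f ^ n)
      monotone' := monotone_nat_of_le_succ fun n x hx => by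
        rw [RingHom.mem_ker] at hx ⊢
        rw [pow_succ', RingHom.mul_def, RingHom.comp_apply, hx, map_zero] }
  obtain ⟨n, hn⟩ := monotone_stabilizes_iff_noetherian.2 (inferInstance : IsNoetherian R R) K
  rw [injective_iff_map_eq_zero]
  intro a ha
  have hs : Function.Surjective (f ^ n) := by
    rw [RingHom.coe_pow]; exact hf.iterate n
  obtain ⟨b, rfl⟩ := hs a
  have h1 : b ∈ K (n + 1) := by
    change b ∈ RingHom.ker (f ^ (n + 1))
    rw [RingHom.mem_ker, pow_succ', RingHom.mul_def, RingHom.comp_apply, ha]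
  rw [← hn (n + 1) (by omega)] at h1
  exact h1

end Hopf

section Regular

variable {C : Type u} [CommRing C]

/-- `π` is a non-zero-divisor modulo the ideal `I`. -/
def RegMod (I : Ideal C) (π : C) : Prop := ∀ c, π * c ∈ I → c ∈ I

lemma RegMod.pow {I : Ideal C} {π : C} (h : RegMod I π) (n : ℕ) : RegMod I (π ^ n) := by
  induction n with
  | zero => intro c hc; simpa using hc
  | succ n ih =>
    intro c hc
    rw [pow_succ, mul_assoc] at hc
    exact h _ (ih _ hc)

lemma RegMod.mul {I : Ideal C} {π π' : C} (h : RegMod I π) (h' : RegMod I π') :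
    RegMod I (π * π') := by
  intro c hc
  rw [mul_assoc] at hc
  exact h' _ (h _ hc)

lemma regMod_bot [IsDomain C] {π : C} (h : π ≠ 0) : RegMod ⊥ π := by
  intro c hc
  rw [Ideal.mem_bot] at hc ⊢
  exact (mul_eq_zero.1 hc).resolve_left h

/-- Exchange of two elements of a regular sequence. -/
lemma RegMod.swap {I : Ideal C} {π r : C} (h : RegMod I π)
    (h' : RegMod (I ⊔ Ideal.span {π}) r) : RegMod (I ⊔ Ideal.span {r}) π := by
  intro c hc
  obtain ⟨a, ha, b, hb, hab⟩ := Submodule.mem_sup.1 hc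
  obtain ⟨e, rfl⟩ := Ideal.mem_span_singleton'.1 hb
  have h1 : r * e ∈ I ⊔ Ideal.span {π} := by
    have : r * e = -a + c * π := by linear_combination hab
    rw [this]
    exact Submodule.add_mem_sup (neg_mem ha) (Ideal.mem_span_singleton'.2 ⟨c, rfl⟩)
  obtain ⟨a', ha', b', hb', hab'⟩ := Submodule.mem_sup.1 (h' e h1)
  obtain ⟨e', rfl⟩ := Ideal.mem_span_singleton'.1 hb'
  have h2 : π * (c - r * e') ∈ I := by
    have : π * (c - r * e') = a + r * a' := by linear_combination -hab - r * hab'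
    rw [this]
    exact add_mem ha (I.mul_mem_left _ ha')
  have h3 := h _ h2
  have : c = (c - r * e') + e' * r := by ring
  rw [this]
  exact Submodule.add_mem_sup h3 (Ideal.mem_span_singleton'.2 ⟨e', rfl⟩)

lemma regMod_of_prime [IsDomain C] {π r : C} (hπ : Prime π) (hr : ¬ π ∣ r) :
    RegMod (Ideal.span {r}) π := by
  have h1 : RegMod (⊥ ⊔ Ideal.span {π}) r := by
    intro c hc
    rw [bot_sup_eq, Ideal.mem_span_singleton] at hc ⊢
    exact (hπ.dvd_or_dvd hc).resolve_left hr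
  simpa using (regMod_bot hπ.ne_zero).swap h1

variable {k : Type*} [Field k] [Algebra k C]

/-- Membership in an ideal can be tested after inverting an element that is regular modulo it. -/
theorem mem_of_loc {I : Ideal C} {π : C} (h : RegMod I π) (c : C)
    (hc : ∀ (L : Type u) [CommRing L] [Algebra k L] (θ : C →ₐ[k] L) (i : L),
      (∀ a ∈ I, θ a = 0) → θ π * i = 1 → θ c = 0) : c ∈ I := by
  let L := Localization.Away (Ideal.Quotient.mk I π)
  let θ : C →ₐ[k] L := (IsScalarTower.toAlgHom k (C ⧸ I) L).comp (Ideal.Quotient.mkₐ k I)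
  have hθ : ∀ a, θ a = algebraMap (C ⧸ I) L (Ideal.Quotient.mk I a) := fun a => rfl
  have h0 := hc L θ (IsLocalization.Away.invSelf (Ideal.Quotient.mk I π))
    (fun a ha => by rw [hθ, Ideal.Quotient.eq_zero_iff_mem.2 ha, map_zero])
    (by rw [hθ]; exact IsLocalization.Away.mul_invSelf _)
  rw [hθ, IsLocalization.map_eq_zero_iff (Submonoid.powers (Ideal.Quotient.mk I π))] at h0
  obtain ⟨⟨_, n, rfl⟩, hn⟩ := h0
  apply h.pow n
  rw [← Ideal.Quotient.eq_zero_iff_mem]
  simpa using hn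

end Regular

section Loc

variable {k : Type*} [Field k] {B Ω : Type*} [CommRing B] [CommRing Ω] [Algebra k B] [Algebra k Ω]

/-- Elements that fall into the image of `φ` after multiplication by a power of `φ π`. -/
def Loc (φ : B →ₐ[k] Ω) (π : B) : Subalgebra k Ω where
  carrier := {t | ∃ n : ℕ, ∃ b, φ π ^ n * t = φ b}
  mul_mem' := by
    rintro s t ⟨n, b, hb⟩ ⟨m, c, hc⟩
    exact ⟨n + m, b * c, by rw [map_mul, ← hb, ← hc]; ring⟩
  add_mem' := by
    rintro s t ⟨n, b, hb⟩ ⟨m, c, hc⟩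
    refine ⟨n + m, π ^ m * b + π ^ n * c, ?_⟩
    rw [map_add, map_mul, map_mul, map_pow, map_pow, ← hb, ← hc]; ring
  algebraMap_mem' := fun r => ⟨0, algebraMap k B r, by simp⟩

lemma mem_Loc {φ : B →ₐ[k] Ω} {π : B} {t : Ω} :
    t ∈ Loc φ π ↔ ∃ n : ℕ, ∃ b, φ π ^ n * t = φ b := Iff.rfl

lemma map_mem_Loc (φ : B →ₐ[k] Ω) (π b : B) : φ b ∈ Loc φ π := ⟨0, b, by simp⟩

lemma mem_Loc_of_mul {φ : B →ₐ[k] Ω} {π : B} {t : Ω} (n : ℕ) (h : φ π ^ n * t ∈ Loc φ π) :
    t ∈ Loc φ π := by
  obtain ⟨m, b, hb⟩ := h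
  exact ⟨m + n, b, by rw [← hb]; ring⟩

/-- Leading term of a nonzero element. -/
lemma exists_lead [IsDomain Ω] [Algebra.FiniteType k B] {φ : B →ₐ[k] Ω}
    (hφ : Function.Injective φ) {π : B} (hπ0 : π ≠ 0) (hπu : ¬ IsUnit π) {t : Ω} (ht : t ≠ 0)
    (h : t ∈ Loc φ π) : ∃ n j : ℕ, ∃ b, ¬ π ∣ b ∧ φ π ^ n * t = φ π ^ j * φ b := by
  have : IsDomain B := hφ.isDomain φ.toRingHom
  have : IsNoetherianRing B := Algebra.FiniteType.isNoetherianRing k B
  have hφπ : φ π ≠ 0 := fun h => hπ0 (hφ (by simpa using h))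
  obtain ⟨n, c, hc⟩ := h
  have hc0 : c ≠ 0 := by
    rintro rfl
    rw [map_zero] at hc
    exact (mul_ne_zero (pow_ne_zero _ hφπ) ht) hc
  obtain ⟨j, b, hb, rfl⟩ := WfDvdMonoid.max_power_factor' hc0 hπu
  exact ⟨n, j, b, hb, by rw [hc, map_mul, map_pow]⟩

end Loc

section Subst

variable {k : Type*} [Field k] {σ : Type*}

/-- A substitution that fixes each variable modulo `I` fixes every polynomial modulo `I`. -/
lemma sub_subst_mem (I : Ideal (MvPolynomial σ k)) (θ : MvPolynomial σ k →ₐ[k] MvPolynomial σ k)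
    (h : ∀ i, MvPolynomial.X i - θ (MvPolynomial.X i) ∈ I) (c : MvPolynomial σ k) :
    c - θ c ∈ I := by
  have : Ideal.Quotient.mkₐ k I = (Ideal.Quotient.mkₐ k I).comp θ := by
    apply MvPolynomial.algHom_ext
    intro i
    simpa [Ideal.Quotient.eq] using h i
  have h2 := DFunLike.congr_fun this c
  simpa [Ideal.Quotient.eq] using h2

/-- A subalgebra containing the images of the variables contains the range. -/
lemma map_mem_of_X {Ω : Type*} [CommRing Ω] [Algebra k Ω] (S : Subalgebra k Ω)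
    (θ : MvPolynomial σ k →ₐ[k] Ω) (h : ∀ i, θ (MvPolynomial.X i) ∈ S) (c : MvPolynomial σ k) :
    θ c ∈ S := by
  induction c using MvPolynomial.induction_on with
  | C a => simp
  | add p q hp hq => rw [map_add]; exact add_mem hp hq
  | mul_X p i hp => rw [map_mul]; exact mul_mem hp (h i)

end Subst

section PolyExt

variable {k : Type*} [Field k] {R : Type*} [CommRing R] [Algebra k R]

/-- Coefficientwise extension of a derivation to the polynomial ring. -/
theorem exists_polyExt (D : Derivation k R R) (hD : LND D) :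
    ∃ D' : Derivation k R[X] R[X], LND D' ∧ D' X = 0 ∧ ∀ a, D' (C a) = C (D a) := by
  let D' : Derivation k R[X] R[X] := PolynomialModule.equivPolynomialSelf.compDer D.mapCoeffs
  have hc : ∀ (p : R[X]) (i : ℕ), (D' p).coeff i = D (p.coeff i) := fun p i => rfl
  have hX : D' X = 0 := by
    ext i; rw [hc, coeff_X]; split_ifs <;> simp
  have hC : ∀ a, D' (C a) = C (D a) := by
    intro a; ext i; rw [hc, coeff_C, coeff_C]; split_ifs <;> simp
  refine ⟨D', fun p => ?_, hX, hC⟩
  have htop : p ∈ Algebra.adjoin k (Set.range (C : R → R[X]) ∪ {X}) := by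
    induction p using Polynomial.induction_on with
    | C c => exact Algebra.subset_adjoin (Or.inl ⟨c, rfl⟩)
    | add p q hp hq => exact add_mem hp hq
    | monomial n a h =>
      rw [pow_succ, ← mul_assoc]
      exact mul_mem h (Algebra.subset_adjoin (Or.inr rfl))
  refine nil_of_mem_adjoin D' _ ?_ htop
  rintro a (⟨c, rfl⟩ | rfl)
  · obtain ⟨n, hn⟩ := hD c
    refine ⟨n, ?_⟩
    have : ∀ m : ℕ, D'^[m] (C c) = C (D^[m] c) := by
      intro m
      induction m with
      | zero => rfl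
      | succ m ih => rw [Function.iterate_succ_apply', Function.iterate_succ_apply', ih, hC]
    rw [this, hn, map_zero]
  · exact ⟨1, hX⟩

end PolyExt

section Quot

variable {σ : Type}

/-- Quotient of a complex polynomial ring by an ideal, as an opaque type. -/
def Q (I : Ideal (MvPolynomial σ ℂ)) : Type := MvPolynomial σ ℂ ⧸ I

noncomputable instance (I : Ideal (MvPolynomial σ ℂ)) : CommRing (Q I) :=
  inferInstanceAs (CommRing (MvPolynomial σ ℂ ⧸ I))

noncomputable instance (I : Ideal (MvPolynomial σ ℂ)) : Algebra ℂ (Q I) :=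
  inferInstanceAs (Algebra ℂ (MvPolynomial σ ℂ ⧸ I))

/-- The quotient map. -/
noncomputable def mkQ (I : Ideal (MvPolynomial σ ℂ)) : MvPolynomial σ ℂ →ₐ[ℂ] Q I :=
  Ideal.Quotient.mkₐ ℂ I

lemma mkQ_surjective (I : Ideal (MvPolynomial σ ℂ)) : Function.Surjective (mkQ I) :=
  Ideal.Quotient.mk_surjective

lemma mkQ_eq_zero {I : Ideal (MvPolynomial σ ℂ)} {a : MvPolynomial σ ℂ} :
    mkQ I a = 0 ↔ a ∈ I := Ideal.Quotient.eq_zero_iff_mem

instance [Finite σ] (I : Ideal (MvPolynomial σ ℂ)) : Algebra.FiniteType ℂ (Q I) :=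
  Algebra.FiniteType.of_surjective (mkQ I) (mkQ_surjective I)

/-- Maps out of the quotient. -/
noncomputable def liftQ {L : Type*} [CommRing L] [Algebra ℂ L] (I : Ideal (MvPolynomial σ ℂ))
    (θ : MvPolynomial σ ℂ →ₐ[ℂ] L) (h : ∀ a ∈ I, θ a = 0) : Q I →ₐ[ℂ] L :=
  Ideal.Quotient.liftₐ I θ h

@[simp] lemma liftQ_mkQ {L : Type*} [CommRing L] [Algebra ℂ L] (I : Ideal (MvPolynomial σ ℂ))
    (θ : MvPolynomial σ ℂ →ₐ[ℂ] L) (h : ∀ a ∈ I, θ a = 0) (a : MvPolynomial σ ℂ) :
    liftQ I θ h (mkQ I a) = θ a := rfl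

lemma liftQ_injective {L : Type*} [CommRing L] [Algebra ℂ L] (I : Ideal (MvPolynomial σ ℂ))
    (θ : MvPolynomial σ ℂ →ₐ[ℂ] L) (h : ∀ a ∈ I, θ a = 0) (h' : ∀ a, θ a = 0 → a ∈ I) :
    Function.Injective (liftQ I θ h) := by
  rw [injective_iff_map_eq_zero]
  intro a ha
  obtain ⟨a, rfl⟩ := mkQ_surjective I a
  exact mkQ_eq_zero.2 (h' a ha)

lemma vanish_span {L : Type*} [CommRing L] [Algebra ℂ L] (s : Set (MvPolynomial σ ℂ))
    (θ : MvPolynomial σ ℂ →ₐ[ℂ] L) (h : ∀ a ∈ s, θ a = 0) : ∀ a ∈ Ideal.span s, θ a = 0 := by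
  intro a ha
  have : Ideal.span s ≤ RingHom.ker θ := Ideal.span_le.2 h
  exact this ha

lemma vanish_span_one {L : Type*} [CommRing L] [Algebra ℂ L] (r : MvPolynomial σ ℂ)
    (θ : MvPolynomial σ ℂ →ₐ[ℂ] L) (h : θ r = 0) : ∀ a ∈ Ideal.span {r}, θ a = 0 :=
  vanish_span _ θ (by rintro a rfl; exact h)

lemma algHomQ_ext {L : Type*} [CommRing L] [Algebra ℂ L] {I : Ideal (MvPolynomial σ ℂ)}
    {f g : Q I →ₐ[ℂ] L} (h : ∀ i, f (mkQ I (MvPolynomial.X i)) = g (mkQ I (MvPolynomial.X i))) :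
    f = g := by
  have : f.comp (mkQ I) = g.comp (mkQ I) := MvPolynomial.algHom_ext h
  ext a
  obtain ⟨a, rfl⟩ := mkQ_surjective I a
  exact DFunLike.congr_fun this a

end Quot

end Vale.Agent.P295
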