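import Vale.Agent.P295.Alg

/-! The surfaces `x z = y (y + c)` times a line, and rigidity on the cone `c = 0`. -/

namespace Vale.Agent.P295

open MvPolynomial

abbrev C3 := MvPolynomial (Fin 3) ℂ
abbrev C4 := MvPolynomial (Fin 4) ℂ
abbrev C5 := MvPolynomial (Fin 5) ℂ

/-- `x z - y (y + c)` in the variables `x, y, z, u`. -/
noncomputable def qc (c : ℂ) : C4 := X 0 * X 2 - X 1 * (X 1 + C c)

abbrev O (c : ℂ) := Q (Ideal.span {qc c})

/-- The quotient map onto `O c`. -/
noncomputable abbrev mkO (c : ℂ) : C4 →ₐ[ℂ] O c := mkQ _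

/-- The chart `x, s, u` with `y = x s`, `z = c s + x s ^ 2`. -/
noncomputable def iota0 (c : ℂ) : C4 →ₐ[ℂ] C3 :=
  aeval ![X 0, X 0 * X 1, C c * X 1 + X 0 * X 1 ^ 2, X 2]

@[simp] lemma iota0_X0 (c : ℂ) : iota0 c (X 0) = X 0 := by simp [iota0]
@[simp] lemma iota0_X1 (c : ℂ) : iota0 c (X 1) = X 0 * X 1 := by simp [iota0]
@[simp] lemma iota0_X2 (c : ℂ) : iota0 c (X 2) = C c * X 1 + X 0 * X 1 ^ 2 := by simp [iota0]
@[simp] lemma iota0_X3 (c : ℂ) : iota0 c (X 3) = X 2 := by simp [iota0]

lemma iota0_qc (c : ℂ) : iota0 c (qc c) = 0 := by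
  simp [qc]; ring

lemma not_X0_dvd_qc (c : ℂ) : ¬ (X 0 : C4) ∣ qc c := by
  intro h
  have h1 := map_dvd (aeval (R := ℂ) ![(0 : ℂ), 1 - c, 0, 0]) h
  have h2 := map_dvd (aeval (R := ℂ) ![(0 : ℂ), -1 - c, 0, 0]) h
  simp [qc] at h1 h2
  have : (2 : ℂ) = 0 := by linear_combination -h1 - h2
  norm_num at this

lemma mem_of_iota0 (c : ℂ) (a : C4) (ha : iota0 c a = 0) : a ∈ Ideal.span {qc c} := by
  refine mem_of_loc (k := ℂ) (regMod_of_prime X_prime (not_X0_dvd_qc c)) a ?_
  intro L _ _ θ i hI hi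
  have hq := hI _ (Ideal.subset_span rfl)
  simp only [qc, map_sub, map_mul, map_add, algHom_C] at hq
  let ψ : C3 →ₐ[ℂ] L := aeval ![θ (X 0), θ (X 1) * i, θ (X 3)]
  have : θ = ψ.comp (iota0 c) := by
    apply algHom_ext
    intro j
    fin_cases j
    · simp [ψ]
    · simp [ψ]; linear_combination (-θ (X 1)) * hi
    · simp [ψ]
      linear_combination i * hq - (θ (X 2) + θ (X 1) ^ 2 * i) * hi
    · simp [ψ]
  rw [this, AlgHom.comp_apply, ha, map_zero]

/-- The chart map on the quotient ring. -/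
noncomputable def iota (c : ℂ) : O c →ₐ[ℂ] C3 :=
  liftQ _ (iota0 c) (vanish_span_one _ _ (iota0_qc c))

@[simp] lemma iota_mk (c : ℂ) (a : C4) : iota c (mkO c a) = iota0 c a := rfl

lemma iota_injective (c : ℂ) : Function.Injective (iota c) :=
  liftQ_injective _ _ _ (mem_of_iota0 c)

instance (c : ℂ) : IsDomain (O c) := (iota_injective c).isDomain (iota c).toRingHom

lemma lnd_pderiv' {σ : Type*} (i : σ) :
    LND (pderiv i : Derivation ℂ (MvPolynomial σ ℂ) (MvPolynomial σ ℂ)) :=
  lnd_pderiv (k := ℂ) (S := ℂ) i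

/-- Decomposition of a function on the cone that vanishes on the plane `s = ε u`. -/
lemma cone_decomp (ε : ℂ) (hε : ε * ε = 1) (g : O 0) (m : C3)
    (hg : iota 0 g = (X 2 ^ 2 - X 1 ^ 2) * m) :
    ∃ a b : O 0, iota 0 g = (X 2 - C ε * X 1) * (X 0 * (iota 0 a + X 1 * iota 0 b)) := by
  obtain ⟨c, rfl⟩ := mkQ_surjective _ g
  let κ : C3 →ₐ[ℂ] C4 := aeval ![X 0, C ε * X 3, X 3]
  have hC : (C ε : C4) * C ε = 1 := by rw [← map_mul, hε, map_one]
  have hC' : (C ε : C3) * C ε = 1 := by rw [← map_mul, hε, map_one]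
  have h0 : (κ.comp (iota0 0)) c = 0 := by
    rw [iota_mk] at hg
    rw [AlgHom.comp_apply, hg]
    simp [κ]
    left
    linear_combination (-(X 3 : C4) ^ 2) * hC
  have h1 := sub_subst_mem (Ideal.span {X 0 * X 3 - C ε * X 1, X 1 * X 3 - C ε * X 2})
    (κ.comp (iota0 0)) (by
      intro j
      rw [Ideal.mem_span_pair]
      fin_cases j
      · exact ⟨0, 0, by simp [κ]⟩
      · refine ⟨-C ε, 0, ?_⟩
        simp [κ]
        linear_combination (X 1 : C4) * hC
      · refine ⟨-X 3, -C ε, ?_⟩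
        simp [κ]
        linear_combination ((X 2 : C4) + X 0 * X 3 ^ 2) * hC
      · exact ⟨0, 0, by simp [κ]⟩) c
  rw [h0, sub_zero, Ideal.mem_span_pair] at h1
  obtain ⟨a, b, hab⟩ := h1
  refine ⟨mkO 0 a, mkO 0 b, ?_⟩
  rw [← hab]
  simp
  ring

/-- No nonzero locally nilpotent derivation of the cone ring kills a nonzero function vanishing
on the two planes `s = u` and `s = -u`. -/
theorem cone_rigid (D : Derivation ℂ (O 0) (O 0)) (hD : LND D) (hD0 : D ≠ 0) (g : O 0)
    (hg0 : g ≠ 0) (hDg : D g = 0) (m : C3) (hg : iota 0 g = (X 2 ^ 2 - X 1 ^ 2) * m) : False := by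
  obtain ⟨a, b, hab⟩ := cone_decomp 1 (by norm_num) g m hg
  obtain ⟨a', b', hab'⟩ := cone_decomp (-1) (by norm_num) g m hg
  simp only [map_one, one_mul, map_neg, neg_mul, sub_neg_eq_add] at hab hab'
  have hinj := iota_injective 0
  set x : O 0 := mkO 0 (X 0) with hx
  set y : O 0 := mkO 0 (X 1) with hy
  set z : O 0 := mkO 0 (X 2) with hz
  set u : O 0 := mkO 0 (X 3) with hu
  have ix : iota 0 x = X 0 := by simp [hx]
  have iy : iota 0 y = X 0 * X 1 := by simp [hy]
  have iz : iota 0 z = X 0 * X 1 ^ 2 := by simp [hz]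
  have iu : iota 0 u = X 2 := by simp [hu]
  set M := a * x + b * y with hM
  set N := a * y + b * z with hN
  set M' := a' * x + b' * y with hM'
  set N' := a' * y + b' * z with hN'
  have iM : iota 0 M = X 0 * (iota 0 a + X 1 * iota 0 b) := by
    simp only [hM, map_add, map_mul, ix, iy]; ring
  have iN : iota 0 N = X 1 * iota 0 M := by
    simp only [hM, hN, map_add, map_mul, ix, iy, iz]; ring
  have iM' : iota 0 M' = X 0 * (iota 0 a' + X 1 * iota 0 b') := by
    simp only [hM', map_add, map_mul, ix, iy]; ring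
  have iN' : iota 0 N' = X 1 * iota 0 M' := by
    simp only [hM', hN', map_add, map_mul, ix, iy, iz]; ring
  rw [← iM] at hab
  rw [← iM'] at hab'
  have e1 : g = u * M - N := hinj (by rw [map_sub, map_mul, iu, iN, hab]; ring)
  have e2 : (u * M + N) * (u * M' - N') = g ^ 2 := hinj (by
    rw [map_mul, map_add, map_sub, map_mul, map_mul, iu, iN, iN', map_pow, sq]
    nth_rewrite 1 [hab]
    rw [hab']; ring)
  have h1 : D (u * M + N) = 0 :=
    hD.eq_zero_of_mul (b := u * M' - N') (by rw [e2]; exact pow_ne_zero _ hg0)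
      (by rw [e2]; simp [hDg])
  have hM0 : iota 0 M ≠ 0 := by
    intro h
    rw [h, mul_zero] at hab
    exact hg0 (hinj (by rw [hab, map_zero]))
  have hM0' : M ≠ 0 := fun h => hM0 (by rw [h, map_zero])
  have hu0 : u ≠ 0 := fun h => X_ne_zero (R := ℂ) (2 : Fin 3) (by rw [← iu, h, map_zero])
  have h2 : D (u * M) = 0 := by
    have h3 : (2 : ℂ) • (u * M) = (u * M + N) + g := by rw [e1, two_smul]; ring
    have h4 : (2 : ℂ) • D (u * M) = 0 := by rw [← D.map_smul, h3, map_add, h1, hDg, add_zero]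
    exact (smul_eq_zero.1 h4).resolve_left two_ne_zero
  have hDu : D u = 0 := hD.eq_zero_of_mul (mul_ne_zero hu0 hM0') h2
  have hDM : D M = 0 := hD.eq_zero_of_mul (mul_ne_zero hM0' hu0) (by rw [mul_comm]; exact h2)
  have hDN : D N = 0 := by rw [map_add, h2, zero_add] at h1; exact h1
  have e3 : x * N = y * M := hinj (by rw [map_mul, map_mul, ix, iy, iN]; ring)
  have e4 : y * N = z * M := hinj (by rw [map_mul, map_mul, iz, iy, iN]; ring)
  have hDy : iota 0 (D y) = X 1 * iota 0 (D x) := by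
    have := congrArg (fun t => iota 0 (D t)) e3
    simp only [Derivation.leibniz, hDN, hDM, smul_eq_mul, mul_zero, zero_add, map_mul, iN] at this
    apply mul_left_cancel₀ hM0
    linear_combination -this
  have hDz : iota 0 (D z) = X 1 ^ 2 * iota 0 (D x) := by
    have := congrArg (fun t => iota 0 (D t)) e4
    simp only [Derivation.leibniz, hDN, hDM, smul_eq_mul, mul_zero, zero_add, map_mul, iN,
      hDy] at this
    apply mul_left_cancel₀ hM0
    linear_combination -this
  have key : ∀ c : C4, iota 0 (D (mkO 0 c)) =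
      iota 0 (D x) * pderiv 0 (iota0 0 c) := by
    intro c
    induction c using MvPolynomial.induction_on with
    | C r =>
      simp
    | add p q hp hq => simp only [map_add, hp, hq]; ring
    | mul_X p j hp =>
      have hj : iota 0 (D (mkO 0 (X j))) =
          iota 0 (D x) * pderiv 0 (iota0 0 (X j)) := by
        fin_cases j
        · simp [hx]
        · have := hDy
          simp [hy] at this ⊢
          rw [this]; ring
        · have := hDz
          simp [hz] at this ⊢
          rw [this]; ring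
        · have := hDu
          simp [hu] at this ⊢
          rw [this]; simp
      simp only [map_mul, Derivation.leibniz, smul_eq_mul, map_add, hp, hj, iota_mk]
      ring
  have key' : ∀ t : O 0, iota 0 (D t) = iota 0 (D x) * pderiv 0 (iota 0 t) := by
    intro t
    obtain ⟨c, rfl⟩ := mkQ_surjective _ t
    exact key c
  have hDx : iota 0 (D x) ≠ 0 := by
    intro h
    apply hD0
    ext t
    apply hinj
    rw [key', h]; simp
  have h5 : pderiv 0 (iota 0 M) = 0 := by
    have := key' M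
    rw [hDM, map_zero] at this
    exact (mul_eq_zero.1 this.symm).resolve_left hDx
  rw [iM] at h5 hM0
  have h6 := (lnd_pderiv' (0 : Fin 3)).eq_zero_of_mul hM0 h5
  simp at h6

end Vale.Agent.P295
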