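import Mathlib

/-! Locally nilpotent derivations: Leibniz formula, exponential map, reduction lemma. -/

namespace Vale.Agent.P295

open Polynomial Finset

section Basic

variable {k : Type*} [Field k] {R : Type*} [CommRing R] [Algebra k R]

/-- A derivation is locally nilpotent. -/
def LND (D : Derivation k R R) : Prop := ∀ a, ∃ n : ℕ, D^[n] a = 0

lemma iter_zero (D : Derivation k R R) (n : ℕ) : D^[n] (0 : R) = 0 :=
  Function.iterate_fixed (map_zero D) n

lemma iter_add (D : Derivation k R R) (n : ℕ) (a b : R) :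
    D^[n] (a + b) = D^[n] a + D^[n] b := by
  induction n with
  | zero => simp
  | succ n ih => simp only [Function.iterate_succ_apply', ih, map_add]

lemma iter_smul (D : Derivation k R R) (n : ℕ) (c : k) (a : R) :
    D^[n] (c • a) = c • D^[n] a := by
  induction n with
  | zero => simp
  | succ n ih => simp only [Function.iterate_succ_apply', ih, Derivation.map_smul]

lemma iter_const_mul (D : Derivation k R R) (n : ℕ) (c a : R) (hc : D c = 0) :
    D^[n] (c * a) = c * D^[n] a := by
  induction n with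
  | zero => simp
  | succ n ih => simp [Function.iterate_succ_apply', ih, hc]

lemma iter_mul (D : Derivation k R R) (n : ℕ) (a b : R) :
    D^[n] (a * b) =
      ∑ ij ∈ antidiagonal n, (n.choose ij.1) • (D^[ij.1] a * D^[ij.2] b) := by
  induction n with
  | zero => simp
  | succ n ih =>
    rw [sum_antidiagonal_choose_succ_nsmul (fun i j => D^[i] a * D^[j] b) n,
      Function.iterate_succ_apply', ih, map_sum, ← sum_add_distrib]
    refine sum_congr rfl fun ij hij => ?_
    have h2 : n.choose ij.2 = n.choose ij.1 := by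
      rw [HasAntidiagonal.mem_antidiagonal] at hij
      rw [← hij, Nat.choose_symm_add]
    rw [h2, map_nsmul, Derivation.leibniz, Function.iterate_succ_apply',
      Function.iterate_succ_apply', smul_add]
    simp only [smul_eq_mul]
    rw [mul_comm (D^[ij.2] b)]

lemma iter_eq_zero_of_le (D : Derivation k R R) {n m : ℕ} {a : R} (h : D^[n] a = 0)
    (hnm : n ≤ m) : D^[m] a = 0 := by
  obtain ⟨d, rfl⟩ := Nat.exists_eq_add_of_le' hnm
  rw [Function.iterate_add_apply, h, iter_zero]

/-- Local nilpotency can be checked on algebra generators. -/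
lemma nil_of_mem_adjoin (D : Derivation k R R) (s : Set R)
    (hs : ∀ a ∈ s, ∃ n : ℕ, D^[n] a = 0) {a : R} (ha : a ∈ Algebra.adjoin k s) :
    ∃ n : ℕ, D^[n] a = 0 := by
  induction ha using Algebra.adjoin_induction with
  | mem x hx => exact hs x hx
  | algebraMap r => exact ⟨1, by simp⟩
  | add x y _ _ hx hy =>
    obtain ⟨n, hn⟩ := hx
    obtain ⟨m, hm⟩ := hy
    exact ⟨n + m, by
      rw [iter_add, iter_eq_zero_of_le D hn (by omega), iter_eq_zero_of_le D hm (by omega),
        add_zero]⟩
  | mul x y _ _ hx hy =>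
    obtain ⟨n, hn⟩ := hx
    obtain ⟨m, hm⟩ := hy
    refine ⟨n + m, ?_⟩
    rw [iter_mul]
    refine sum_eq_zero fun ij hij => ?_
    rw [HasAntidiagonal.mem_antidiagonal] at hij
    rcases le_or_gt n ij.1 with h | h
    · rw [iter_eq_zero_of_le D hn h]; simp
    · rw [iter_eq_zero_of_le D hm (by omega : m ≤ ij.2)]; simp

lemma lnd_pderiv {σ S : Type*} [CommRing S] [Algebra k S] (i : σ) :
    LND ((MvPolynomial.pderiv i : Derivation S (MvPolynomial σ S) (MvPolynomial σ S)).restrictScalars k) := by
  classical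
  intro a
  set D := (MvPolynomial.pderiv i : Derivation S (MvPolynomial σ S) (MvPolynomial σ S)).restrictScalars k
  have htop : a ∈ Algebra.adjoin k
      (Set.range (MvPolynomial.C : S → MvPolynomial σ S) ∪ Set.range MvPolynomial.X) := by
    induction a using MvPolynomial.induction_on with
    | C c => exact Algebra.subset_adjoin (Or.inl ⟨c, rfl⟩)
    | add p q hp hq => exact add_mem hp hq
    | mul_X p j hp => exact mul_mem hp (Algebra.subset_adjoin (Or.inr ⟨j, rfl⟩))
  refine nil_of_mem_adjoin D _ ?_ htop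
  rintro a (⟨c, rfl⟩ | ⟨j, rfl⟩)
  · exact ⟨1, by simp [D]⟩
  · refine ⟨2, ?_⟩
    by_cases h : j = i
    · subst h; simp [D]
    · simp [D, MvPolynomial.pderiv_X_of_ne h]

variable [CharZero k]

/-- The exponential map of a locally nilpotent derivation. -/
theorem exists_exp (D : Derivation k R R) (hD : LND D) :
    ∃ E : R →ₐ[k] R[X], ∀ a n, (E a).coeff n = ((n.factorial : k)⁻¹) • D^[n] a := by
  classical
  have hex : ∀ a : R, ∃ P : R[X], ∀ n, P.coeff n = ((n.factorial : k)⁻¹) • D^[n] a := by
    intro a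
    obtain ⟨N, hN⟩ := hD a
    refine ⟨∑ i ∈ range N, monomial i (((i.factorial : k)⁻¹) • D^[i] a), fun n => ?_⟩
    rw [finsetSum_coeff]
    simp only [coeff_monomial]
    rw [sum_ite_eq' (range N) n]
    split_ifs with h
    · rfl
    · rw [iter_eq_zero_of_le D hN (by simpa using h), smul_zero]
  choose e he using hex
  refine ⟨{ toFun := e, map_one' := ?_, map_mul' := ?_, map_zero' := ?_, map_add' := ?_,
            commutes' := ?_ }, he⟩
  · ext n
    rw [he]
    cases n with
    | zero => simp
    | succ n => simp [coeff_one]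
  · intro a b
    ext n
    rw [he, coeff_mul, iter_mul, smul_sum]
    refine sum_congr rfl fun ij hij => ?_
    rw [HasAntidiagonal.mem_antidiagonal] at hij
    rw [he, he, smul_mul_smul_comm, ← Nat.cast_smul_eq_nsmul k, smul_smul]
    congr 1
    have h := Nat.add_choose_mul_factorial_mul_factorial ij.1 ij.2
    have h' : n.choose ij.1 * ij.1.factorial * ij.2.factorial = n.factorial := by
      rw [← hij, ← h, Nat.choose_symm_add]
    have h1 : (ij.1.factorial : k) ≠ 0 := by exact_mod_cast ij.1.factorial_ne_zero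
    have h2 : (ij.2.factorial : k) ≠ 0 := by exact_mod_cast ij.2.factorial_ne_zero
    have h3 : (n.factorial : k) ≠ 0 := by exact_mod_cast n.factorial_ne_zero
    have h4 : (n.choose ij.1 : k) * ij.1.factorial * ij.2.factorial = n.factorial := by
      exact_mod_cast h'
    field_simp
    linear_combination h4
  · ext n
    rw [he, iter_zero]; simp
  · intro a b
    ext n
    rw [he, coeff_add, he, he, iter_add, smul_add]
  · intro r
    ext n
    rw [he]
    cases n with
    | zero => simp
    | succ n => simp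

/-- The exponential map, in the form used later. -/
theorem exists_exp' (D : Derivation k R R) (hD : LND D) :
    ∃ E : R →ₐ[k] R[X], (∀ a, (E a).coeff 0 = a) ∧ (∀ a, derivative (E a) = E (D a)) := by
  obtain ⟨E, hE⟩ := exists_exp D hD
  refine ⟨E, fun a => by simp [hE], fun a => ?_⟩
  ext n
  rw [coeff_derivative, hE, hE, Function.iterate_succ_apply]
  have h1 : (n.factorial : k) ≠ 0 := by exact_mod_cast n.factorial_ne_zero
  have h2 : ((n : k) + 1) ≠ 0 := by exact_mod_cast n.succ_ne_zero
  have : ((n : R) + 1) = algebraMap k R ((n : k) + 1) := by simp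
  rw [this, mul_comm, ← Algebra.smul_def, smul_smul]
  congr 1
  rw [Nat.factorial_succ]
  push_cast
  field_simp

/-- The kernel of a locally nilpotent derivation of a domain is factorially closed. -/
theorem LND.eq_zero_of_mul [IsDomain R] {D : Derivation k R R} (hD : LND D) {a b : R}
    (hab : a * b ≠ 0) (h : D (a * b) = 0) : D a = 0 := by
  obtain ⟨E, hE0, hE1⟩ := exists_exp' D hD
  have : CharZero R := charZero_of_injective_algebraMap (algebraMap k R).injective
  have hinj : ∀ c, E c = 0 → c = 0 := fun c hc => by rw [← hE0 c, hc]; simp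
  have ha : E a ≠ 0 := fun h0 => left_ne_zero_of_mul hab (hinj a h0)
  have hb : E b ≠ 0 := fun h0 => right_ne_zero_of_mul hab (hinj b h0)
  have h1 : (E (a * b)).natDegree = 0 := by
    rw [← derivative_eq_zero, hE1, h, map_zero]
  rw [map_mul, natDegree_mul ha hb] at h1
  apply hinj
  rw [← hE1]
  exact derivative_of_natDegree_zero (by omega)

/-- An element dividing its own derivative is a constant. -/
theorem LND.eq_zero_of_dvd [IsDomain R] {D : Derivation k R R} (hD : LND D) {a : R}
    (h : a ∣ D a) : D a = 0 := by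
  obtain ⟨E, hE0, hE1⟩ := exists_exp' D hD
  have hinj : ∀ c, E c = 0 → c = 0 := fun c hc => by rw [← hE0 c, hc]; simp
  by_contra hne
  have h1 : E a ∣ derivative (E a) := by
    obtain ⟨c, hc⟩ := h
    exact ⟨E c, by rw [hE1, hc, map_mul]⟩
  have h2 : derivative (E a) ≠ 0 := by rw [hE1]; exact fun h0 => hne (hinj _ h0)
  have h3 := natDegree_le_of_dvd h1 h2
  have h4 : (E a).natDegree ≠ 0 := fun h0 => h2 (derivative_of_natDegree_zero h0)
  have h5 := natDegree_derivative_lt h4
  omega

end Basic

section Reduction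

variable {k : Type*} [Field k] {B Ω B' : Type*} [CommRing B] [CommRing Ω] [CommRing B']
  [Algebra k B] [Algebra k Ω] [Algebra k B']

/-- Reduction lemma: rescale a locally nilpotent derivation killing `π` and reduce it modulo `π`. -/
theorem reduction [IsDomain Ω] [Algebra.FiniteType k B] (φ : B →ₐ[k] Ω)
    (hφ : Function.Injective φ) (π : B) (hπ0 : π ≠ 0) (ρ : B →ₐ[k] B')
    (hρ : Function.Surjective ρ) (hker : ∀ b, ρ b = 0 ↔ π ∣ b) [Nontrivial B']
    (D : Derivation k Ω Ω) (hDπ : D (φ π) = 0)
    (hloc : ∀ b, ∃ n : ℕ, ∃ b', φ π ^ n * D (φ b) = φ b')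
    (hnil : ∀ b, ∃ n : ℕ, D^[n] (φ b) = 0) (hne : ∃ b, D (φ b) ≠ 0) :
    ∃ D' : Derivation k B' B', LND D' ∧ D' ≠ 0 ∧ ∀ b, D (φ b) = 0 → D' (ρ b) = 0 := by
  classical
  have : IsDomain B := hφ.isDomain φ.toRingHom
  have : IsNoetherianRing B := Algebra.FiniteType.isNoetherianRing k B
  have hπu : ¬ IsUnit π := fun hu => by
    have : ρ 1 = 0 := (hker 1).2 hu.dvd
    simp at this
  have hφπ : φ π ≠ 0 := fun h => hπ0 (hφ (by simpa using h))
  have hDpow : ∀ n : ℕ, D (φ π ^ n) = 0 := fun n => by simp [hDπ]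
  obtain ⟨N, hN⟩ : ∃ N : ℕ, ∀ b, ∃ b', φ π ^ N * D (φ b) = φ b' := by
    obtain ⟨s, hs⟩ := (Algebra.FiniteType.out : (⊤ : Subalgebra k B).FG)
    choose n c hc using hloc
    refine ⟨s.sup n, fun b => ?_⟩
    have hb : b ∈ Algebra.adjoin k (s : Set B) := by rw [hs]; trivial
    induction hb using Algebra.adjoin_induction with
    | mem x hx =>
      obtain ⟨d, hd⟩ := Nat.exists_eq_add_of_le' (Finset.le_sup (f := n) hx)
      exact ⟨π ^ d * c x, by rw [hd, pow_add, mul_assoc, hc, map_mul, map_pow]⟩
    | algebraMap r => exact ⟨0, by simp⟩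
    | add x y _ _ hx hy =>
      obtain ⟨x', hx'⟩ := hx
      obtain ⟨y', hy'⟩ := hy
      exact ⟨x' + y', by rw [map_add, map_add, mul_add, hx', hy', map_add]⟩
    | mul x y _ _ hx hy =>
      obtain ⟨x', hx'⟩ := hx
      obtain ⟨y', hy'⟩ := hy
      refine ⟨x * y' + y * x', ?_⟩
      rw [map_mul, Derivation.leibniz, map_add, map_mul, map_mul, ← hx', ← hy']
      simp only [smul_eq_mul]; ring
  let P : ℕ → Prop := fun e => ∀ b, ∃ b', φ π ^ N * D (φ b) = φ π ^ e * φ b'
  have hP0 : P 0 := fun b => by simpa using hN b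
  have hPfail : ∃ e, ¬ P (e + 1) := by
    obtain ⟨b, hb⟩ := hne
    obtain ⟨c, hc⟩ := hN b
    have hc0 : c ≠ 0 := by
      rintro rfl
      rw [map_zero] at hc
      exact (mul_ne_zero (pow_ne_zero _ hφπ) hb) hc
    obtain ⟨e, c', hc', rfl⟩ := WfDvdMonoid.max_power_factor' hc0 hπu
    refine ⟨e, fun h => ?_⟩
    obtain ⟨b', hb'⟩ := h b
    rw [hc, ← map_pow, ← map_mul] at hb'
    have := hφ hb'
    rw [pow_succ, mul_assoc] at this
    exact hc' ⟨b', mul_left_cancel₀ (pow_ne_zero _ hπ0) this⟩
  obtain ⟨e, hPe, hPe'⟩ : ∃ e, P e ∧ ¬ P (e + 1) := by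
    refine ⟨Nat.find hPfail, ?_, Nat.find_spec hPfail⟩
    rcases h : Nat.find hPfail with _ | m
    · exact hP0
    · have := Nat.find_min hPfail (m := m) (by omega)
      exact not_not.1 this
  choose δ hδ using hPe
  have hcanc : ∀ b c : B, φ π ^ e * φ b = φ π ^ e * φ c → b = c := fun b c h =>
    hφ (mul_left_cancel₀ (pow_ne_zero _ hφπ) h)
  let δl : B →ₗ[k] B :=
    { toFun := δ
      map_add' := fun a b => hcanc _ _ (by
        rw [← hδ, map_add φ (δ a), mul_add, ← hδ, ← hδ, map_add, map_add, mul_add])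
      map_smul' := fun c a => hcanc _ _ (by
        rw [← hδ, RingHom.id_apply, map_smul, map_smul φ c (δ a), mul_smul_comm c _ (φ (δ a)),
          ← hδ, Derivation.map_smul, mul_smul_comm]) }
  let δD : Derivation k B B := Derivation.mk' δl (fun a b => hcanc _ _ (by
    change φ π ^ e * φ (δ (a * b)) = φ π ^ e * φ (a * δ b + b * δ a)
    rw [← hδ, map_mul, Derivation.leibniz, map_add, map_mul, map_mul]
    simp only [smul_eq_mul]
    linear_combination φ a * hδ b + φ b * hδ a))
  have hδD : ∀ b, δD b = δ b := fun b => rfl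
  have hker0 : ∀ b, D (φ b) = 0 → δD b = 0 := fun b hb => hcanc _ _ (by
    rw [hδD, ← hδ, hb]; simp)
  have hlift : ∀ b, ρ b = 0 → ρ (δD b) = 0 := fun b hb => by
    obtain ⟨c, rfl⟩ := (hker b).1 hb
    rw [hker, Derivation.leibniz, hker0 π hDπ]
    simp
  have hiter : ∀ (m : ℕ) (b : B),
      (φ π ^ N) ^ m * D^[m] (φ b) = (φ π ^ e) ^ m * φ (δD^[m] b) := by
    intro m
    induction m with
    | zero => simp
    | succ m ih =>
      intro b
      rw [Function.iterate_succ_apply', Function.iterate_succ_apply', hδD]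
      have h1 := congrArg D (ih b)
      rw [Derivation.leibniz, Derivation.leibniz, ← pow_mul, ← pow_mul, hDpow, hDpow] at h1
      simp only [smul_eq_mul, mul_zero, add_zero] at h1
      have h2 := hδ (δD^[m] b)
      rw [← pow_mul, ← pow_mul]
      linear_combination (exp := 1) φ π ^ N * h1 + φ π ^ (e * m) * h2
  let D' : Derivation k B' B' := Derivation.liftOfSurjective hρ hlift
  have hD' : ∀ b, D' (ρ b) = ρ (δD b) := fun b => Derivation.liftOfSurjective_apply hρ hlift b
  refine ⟨D', ?_, ?_, fun b hb => by rw [hD', hker0 b hb, map_zero]⟩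
  · intro a
    obtain ⟨b, rfl⟩ := hρ a
    obtain ⟨m, hm⟩ := hnil b
    refine ⟨m, ?_⟩
    have h1 : δD^[m] b = 0 := by
      have := hiter m b
      rw [hm, mul_zero] at this
      have h2 := (mul_eq_zero.1 this.symm).resolve_left (pow_ne_zero _ (pow_ne_zero _ hφπ))
      exact hφ (by simpa using h2)
    have h2 : ∀ j : ℕ, D'^[j] (ρ b) = ρ (δD^[j] b) := by
      intro j
      induction j with
      | zero => rfl
      | succ j ih => rw [Function.iterate_succ_apply', Function.iterate_succ_apply', ih, hD']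
    rw [h2, h1, map_zero]
  · intro h0
    apply hPe'
    intro b
    have h1 : ρ (δD b) = 0 := by rw [← hD', h0]; rfl
    obtain ⟨c, hc⟩ := (hker _).1 h1
    refine ⟨c, ?_⟩
    rw [hδ, ← hδD, hc, map_mul]; ring

end Reduction

end Vale.Agent.P295
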