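import Vale.Agent.P295.Step1

/-! The polynomial `pA` is a coordinate after adjoining one variable; its fibres are affine spaces. -/

namespace Vale.Agent.P295

open MvPolynomial

lemma stable_gens {L : Type*} [CommRing L] [Algebra ℂ L] (S : Subalgebra ℂ L)
    (p s u F J x w s1 F1 J1 w' J' F' : L)
    (hx : x = s ^ 2 - u ^ 2 + p * F) (hH : u = x ^ 2 * F - (1 + 2 * s * x) * J - p * J ^ 2)
    (e1 : s1 = s + p * w) (e2 : F1 = F - 2 * s * w - p * w ^ 2) (e3 : J1 = J - x * w)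
    (e4 : w' = x * F1 - 2 * s1 * J1 - w) (e5 : J' = J1 - x * w')
    (e6 : F' = F1 - 2 * J' * J1 ^ 2 - p * J1 ^ 4)
    (hp : p ∈ S) (hs1 : s1 ∈ S) (hJ' : J' ∈ S) (hF' : F' ∈ S) (hw' : w' ∈ S) :
    s ∈ S ∧ u ∈ S ∧ F ∈ S ∧ J ∈ S ∧ w ∈ S := by
  have h2 : (2 : L) ∈ S := by exact_mod_cast natCast_mem S 2
  have k1 : u = -J' - p * J1 ^ 2 := by
    rw [e5, e4, e3, e2, e1]; linear_combination hH
  have k2 : x = s1 ^ 2 - J' ^ 2 + p * F' := by
    have : x = s1 ^ 2 - u ^ 2 + p * F1 := by rw [e1, e2]; linear_combination hx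
    rw [e6]
    linear_combination this - (u - J' - p * J1 ^ 2) * k1
  have mx : x ∈ S := by rw [k2]; apply_rules [add_mem, sub_mem, mul_mem, pow_mem]
  have mJ1 : J1 ∈ S := by
    rw [show J1 = J' + x * w' by linear_combination -e5]; apply_rules [add_mem, mul_mem]
  have mu : u ∈ S := by rw [k1]; apply_rules [add_mem, sub_mem, mul_mem, pow_mem, neg_mem]
  have mF1 : F1 ∈ S := by
    rw [show F1 = F' + 2 * J' * J1 ^ 2 + p * J1 ^ 4 by linear_combination -e6]
    apply_rules [add_mem, mul_mem, pow_mem]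
  have mw : w ∈ S := by
    rw [show w = x * F1 - 2 * s1 * J1 - w' by linear_combination e4]
    apply_rules [add_mem, sub_mem, mul_mem]
  have ms : s ∈ S := by
    rw [show s = s1 - p * w by linear_combination -e1]; apply_rules [sub_mem, mul_mem]
  have mJ : J ∈ S := by
    rw [show J = J1 + x * w by linear_combination -e3]; apply_rules [add_mem, mul_mem]
  have mF : F ∈ S := by
    rw [show F = F1 + 2 * s * w + p * w ^ 2 by linear_combination -e2]
    apply_rules [add_mem, mul_mem, pow_mem]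
  exact ⟨ms, mu, mF, mJ, mw⟩

/-- A surjective substitution is an automorphism. -/
lemma exists_equiv_of_adjoin {n : ℕ} (g : Fin n → MvPolynomial (Fin n) ℂ)
    (hg : Algebra.adjoin ℂ (Set.range g) = ⊤) :
    ∃ e : MvPolynomial (Fin n) ℂ ≃ₐ[ℂ] MvPolynomial (Fin n) ℂ, ∀ i, e (g i) = X i := by
  have hs : Function.Surjective (aeval g : MvPolynomial (Fin n) ℂ →ₐ[ℂ] _) := by
    rw [← AlgHom.range_eq_top, ← Algebra.adjoin_range_eq_range_aeval, hg]
  have hi := injective_of_surjective_end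
    (aeval g : MvPolynomial (Fin n) ℂ →ₐ[ℂ] MvPolynomial (Fin n) ℂ).toRingHom hs
  refine ⟨(AlgEquiv.ofBijective (aeval g) ⟨hi, hs⟩).symm, fun i => ?_⟩
  rw [AlgEquiv.symm_apply_eq]
  simp

theorem pA_stable_adjoin : ∃ g : Fin 5 → C5, g 0 = rename Fin.castSucc pA ∧
    Algebra.adjoin ℂ (Set.range g) = ⊤ := by
  let ι : C4 →ₐ[ℂ] C5 := rename Fin.castSucc
  have hx := congrArg ι xA_eq
  have hH := congrArg ι uA_eq
  simp only [map_add, map_sub, map_mul, map_pow, map_one, map_ofNat] at hx hH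
  obtain ⟨s1, e1⟩ : ∃ s1, s1 = ι sA + ι pA * X 4 := ⟨_, rfl⟩
  obtain ⟨F1, e2⟩ : ∃ F1, F1 = ι FA - 2 * ι sA * X 4 - ι pA * X 4 ^ 2 := ⟨_, rfl⟩
  obtain ⟨J1, e3⟩ : ∃ J1, J1 = ι JA - ι xA * X 4 := ⟨_, rfl⟩
  obtain ⟨w', e4⟩ : ∃ w', w' = ι xA * F1 - 2 * s1 * J1 - X 4 := ⟨_, rfl⟩
  obtain ⟨J', e5⟩ : ∃ J', J' = J1 - ι xA * w' := ⟨_, rfl⟩
  obtain ⟨F', e6⟩ : ∃ F', F' = F1 - 2 * J' * J1 ^ 2 - ι pA * J1 ^ 4 := ⟨_, rfl⟩
  refine ⟨![ι pA, s1, J', F', w'], rfl, ?_⟩
  set S := Algebra.adjoin ℂ (Set.range ![ι pA, s1, J', F', w'])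
  have hp : ι pA ∈ S := Algebra.subset_adjoin ⟨0, rfl⟩
  obtain ⟨ms, mu, mF, mJ, mw⟩ := stable_gens S _ _ _ _ _ _ _ _ _ _ _ _ _ hx hH e1 e2 e3 e4 e5 e6
    hp (Algebra.subset_adjoin ⟨1, rfl⟩) (Algebra.subset_adjoin ⟨2, rfl⟩)
    (Algebra.subset_adjoin ⟨3, rfl⟩) (Algebra.subset_adjoin ⟨4, rfl⟩)
  rw [eq_top_iff]
  intro t _
  refine map_mem_of_X S (AlgHom.id ℂ C5) (fun j => ?_) t
  refine Fin.lastCases ?_ (fun i => ?_) j
  · exact mw
  · have := mem_of_gens S ι hp ms mu mF mJ (X i)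
    simpa [ι] using this

lemma algHom_ext_gens {L : Type*} [CommRing L] [Algebra ℂ L] (f g : C4 →ₐ[ℂ] L)
    (hp : f pA = g pA) (hs : f sA = g sA) (hu : f uA = g uA) (hF : f FA = g FA)
    (hJ : f JA = g JA) : f = g := by
  ext1 j
  exact mem_of_gens (AlgHom.equalizer f g) (AlgHom.id ℂ C4) hp hs hu hF hJ (X j)

lemma fibre_of_maps (c : ℂ) (χ : C4 →ₐ[ℂ] C3) (hχ : χ pA = C c) (lam : C3 →ₐ[ℂ] C4)
    (h1 : χ.comp lam = AlgHom.id ℂ C3)
    (h2 : (Ideal.Quotient.mkₐ ℂ (Ideal.span {pA - C c})).comp (lam.comp χ) =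
      Ideal.Quotient.mkₐ ℂ (Ideal.span {pA - C c})) :
    Nonempty ((C4 ⧸ Ideal.span {pA - C c}) ≃ₐ[ℂ] C3) := by
  have hs : Function.Surjective χ := fun a => ⟨lam a, DFunLike.congr_fun h1 a⟩
  have hk : RingHom.ker χ = Ideal.span {pA - C c} := by
    apply le_antisymm
    · intro a ha
      have := DFunLike.congr_fun h2 a
      rw [RingHom.mem_ker] at ha
      simp only [AlgHom.comp_apply, ha, map_zero] at this
      exact Ideal.Quotient.eq_zero_iff_mem.1 this.symm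
    · rw [Ideal.span_le]
      rintro a rfl
      simp [hχ]
  exact ⟨(Ideal.quotientEquivAlgOfEq ℂ hk.symm).trans (Ideal.quotientKerAlgEquivOfSurjective hs)⟩

theorem pA_fibre (c : ℂ) : Nonempty ((C4 ⧸ Ideal.span {pA - C c}) ≃ₐ[ℂ] C3) := by
  set π := Ideal.Quotient.mkₐ ℂ (Ideal.span {pA - C c}) with hπ
  have hπp : π pA = algebraMap ℂ _ c := by
    have : π (pA - C c) = 0 := Ideal.Quotient.eq_zero_iff_mem.2 (Ideal.subset_span rfl)
    rw [map_sub, algHom_C] at this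
    exact sub_eq_zero.1 this
  have hx := congrArg π xA_eq
  have hH := congrArg π uA_eq
  simp only [map_add, map_sub, map_mul, map_pow, map_one, map_ofNat, hπp] at hx hH
  by_cases hc : c = 0
  · subst hc
    obtain ⟨x, hxx⟩ : ∃ x : C3, x = X 0 ^ 2 - X 1 ^ 2 := ⟨_, rfl⟩
    obtain ⟨χ, h1, h2, h3, h4, h5, h6⟩ := exists_chi (0 : C3) (X 0) (X 1)
      (4 * X 0 ^ 2 * X 1 + (1 + 2 * X 0 * x) * X 2) (-(1 - 2 * X 0 * x) * X 1 + x ^ 2 * X 2) x
      (by rw [hxx]; ring) (by ring)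
    have h00 : algebraMap ℂ (C4 ⧸ Ideal.span {pA - C (0 : ℂ)}) 0 = 0 := map_zero _
    rw [h00] at hπp hx hH
    refine fibre_of_maps 0 χ (by simp [h1])
      (aeval ![sA, uA, (1 - 2 * sA * xA) * FA + 4 * sA ^ 2 * JA]) ?_ ?_
    · apply algHom_ext
      intro j
      fin_cases j
      · simp [h2]
      · simp [h3]
      · simp [h2, h4, h5, h6, map_ofNat]; ring
    · rw [← hπ]
      apply algHom_ext_gens
      · simp only [AlgHom.comp_apply, h1, map_zero, hπp]
      · simp [h2]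
      · simp [h3]
      · simp only [AlgHom.comp_apply, h4, hxx]
        simp [map_ofNat]
        generalize π xA = x at *
        generalize π sA = s at *
        generalize π uA = u at *
        generalize π FA = F at *
        generalize π JA = J at *
        linear_combination (4 * s ^ 2) * hH - 2 * s * ((1 - 2 * s * x) * F + 4 * s ^ 2 * J) * hx
      · simp only [AlgHom.comp_apply, h5, hxx]
        simp [map_ofNat]
        generalize π xA = x at *
        generalize π sA = s at *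
        generalize π uA = u at *
        generalize π FA = F at *
        generalize π JA = J at *
        linear_combination (-(1 - 2 * s * x)) * hH - (2 * s * u + (x + s ^ 2 - u ^ 2) *
          ((1 - 2 * s * x) * F + 4 * s ^ 2 * J)) * hx
  · obtain ⟨i, hi⟩ : ∃ i : ℂ, c * i = 1 := ⟨c⁻¹, mul_inv_cancel₀ hc⟩
    have hi3 : (C c : C3) * C i = 1 := by rw [← map_mul, hi, map_one]
    obtain ⟨u, hu⟩ : ∃ u : C3, u = C i * (X 0 * X 2 - X 1 * (X 1 + 1)) := ⟨_, rfl⟩
    obtain ⟨s, hs⟩ : ∃ s : C3, s = X 2 - X 0 ^ 2 - X 0 * u ^ 2 := ⟨_, rfl⟩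
    obtain ⟨χ, h1, h2, h3, h4, h5, h6⟩ := exists_chi (C c : C3) s u
      (C i * (X 0 - s ^ 2 + u ^ 2)) (C i * (X 1 - s * X 0)) (X 0)
      (by linear_combination (-(X 0 - s ^ 2 + u ^ 2)) * hi3)
      (by linear_combination hu - (C i * X 0) * hs + (C i * (X 1 - s * X 0) ^ 2) * hi3)
    let lam : C3 →ₐ[ℂ] C4 := aeval ![xA, yA, zA]
    have hiq : algebraMap ℂ (C4 ⧸ Ideal.span {pA - C c}) c * algebraMap ℂ _ i = 1 := by
      rw [← map_mul, hi, map_one]
    have hrel := congrArg π rel_A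
    simp only [map_add, map_sub, map_mul, map_one, hπp] at hrel
    have ku : π (lam u) = π uA := by
      rw [hu]
      simp [lam]
      linear_combination (algebraMap ℂ _ i) * hrel + π uA * hiq
    have ks : π (lam s) = π sA := by
      rw [hs]
      simp only [map_sub, map_mul, map_pow, ku]
      simp [lam, zA]
      ring
    refine fibre_of_maps c χ h1 lam ?_ ?_
    · apply algHom_ext
      intro j
      fin_cases j
      · simp [lam, h6]
      · simp [lam, yA, h1, h2, h5, h6]; linear_combination (X 1 - s * X 0) * hi3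
      · simp [lam, zA, h2, h3, h6]; linear_combination hs
    · rw [← hπ]
      apply algHom_ext_gens
      · simp only [AlgHom.comp_apply, h1, hπp]; simp
      · simp only [AlgHom.comp_apply, h2, ks]
      · simp only [AlgHom.comp_apply, h3, ku]
      · simp only [AlgHom.comp_apply, h4, map_mul, map_add, map_sub, map_pow, ks, ku]
        simp [lam]
        linear_combination (algebraMap ℂ _ i) * hx + π FA * hiq
      · simp only [AlgHom.comp_apply, h5, map_mul, map_sub, ks]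
        simp [lam, yA, hπp]
        linear_combination π JA * hiq

end Vale.Agent.P295
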