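import Vale.Agent.P295.Step2

/-! The polynomial `pA` in four variables is not a coordinate. -/

namespace Vale.Agent.P295

open MvPolynomial

noncomputable def xA : C4 := X 1 ^ 2 - X 3 ^ 2 + X 0 * X 2
noncomputable def JA : C4 := -X 3
noncomputable def pA : C4 := X 0 * (1 + 2 * xA * JA) + 2 * xA ^ 2 * (X 3 + X 1)
noncomputable def sA : C4 := X 1 - 2 * xA * JA * X 3 - JA ^ 2 * X 0 - xA ^ 2 * X 2
noncomputable def uA : C4 := X 3 - 2 * xA * JA * X 1 - JA ^ 2 * X 0 + xA ^ 2 * X 2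
noncomputable def FA : C4 := X 2 * (1 - 2 * xA * JA) - 2 * JA ^ 2 * (X 3 - X 1)
noncomputable def yA : C4 := sA * xA + pA * JA
noncomputable def zA : C4 := sA + xA * (xA + uA ^ 2)

lemma xA_eq : xA = sA ^ 2 - uA ^ 2 + pA * FA := by
  have : sA ^ 2 - uA ^ 2 + pA * FA = X 1 ^ 2 - X 3 ^ 2 + X 0 * X 2 := by
    simp only [sA, uA, pA, FA]; ring
  rw [this]; rfl

lemma X0_eq : (X 0 : C4) = -2 * xA ^ 2 * (uA + sA) + pA * (1 - 2 * xA * JA) := by
  simp only [sA, uA, pA]; ring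
lemma X1_eq : (X 1 : C4) = sA + 2 * xA * JA * uA + JA ^ 2 * pA + xA ^ 2 * FA := by
  simp only [sA, uA, pA, FA]; ring
lemma X2_eq : (X 2 : C4) = FA * (1 + 2 * xA * JA) + 2 * JA ^ 2 * (uA - sA) := by
  simp only [sA, uA, FA]; ring
lemma X3_eq : (X 3 : C4) = uA + 2 * xA * JA * sA + JA ^ 2 * pA - xA ^ 2 * FA := by
  simp only [sA, uA, pA, FA]; ring

lemma uA_eq : uA = xA ^ 2 * FA - (1 + 2 * sA * xA) * JA - pA * JA ^ 2 := by
  have h := X3_eq
  have hJ : (X 3 : C4) = -JA := by simp [JA]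
  linear_combination hJ - h

lemma rel_A : xA * zA - yA * (yA + 1) = pA * uA := by
  simp only [yA, zA]
  linear_combination xA ^ 2 * xA_eq - pA * uA_eq

/-- A subalgebra containing the images of `p, s, u, F, J` contains the whole image. -/
lemma mem_of_gens {L : Type*} [CommRing L] [Algebra ℂ L] (S : Subalgebra ℂ L) (θ : C4 →ₐ[ℂ] L)
    (hp : θ pA ∈ S) (hs : θ sA ∈ S) (hu : θ uA ∈ S) (hF : θ FA ∈ S) (hJ : θ JA ∈ S) (c : C4) :
    θ c ∈ S := by
  have h2 : (2 : L) ∈ S := by exact_mod_cast natCast_mem S 2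
  have hx : θ xA ∈ S := by
    rw [xA_eq]; simp only [map_add, map_sub, map_mul, map_pow]
    exact add_mem (sub_mem (pow_mem hs _) (pow_mem hu _)) (mul_mem hp hF)
  have e0 := congrArg θ X0_eq
  have e1 := congrArg θ X1_eq
  have e2 := congrArg θ X2_eq
  have e3 := congrArg θ X3_eq
  simp only [map_add, map_sub, map_mul, map_pow, map_neg, map_one, map_ofNat] at e0 e1 e2 e3
  generalize θ pA = p at *
  generalize θ sA = s at *
  generalize θ uA = u at *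
  generalize θ FA = F at *
  generalize θ JA = J at *
  generalize θ xA = x at *
  have h0 : θ (X 0) ∈ S := by
    rw [e0]; apply_rules [add_mem, sub_mem, mul_mem, pow_mem, neg_mem, one_mem]
  have h1 : θ (X 1) ∈ S := by
    rw [e1]; apply_rules [add_mem, sub_mem, mul_mem, pow_mem, neg_mem, one_mem]
  have h2 : θ (X 2) ∈ S := by
    rw [e2]; apply_rules [add_mem, sub_mem, mul_mem, pow_mem, neg_mem, one_mem]
  have h3 : θ (X 3) ∈ S := by
    rw [e3]; apply_rules [add_mem, sub_mem, mul_mem, pow_mem, neg_mem, one_mem]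
  refine map_mem_of_X S θ (fun j => ?_) c
  fin_cases j
  exacts [h0, h1, h2, h3]

/-- Universal property of `A` in the generators `p, s, u, F, J`. -/
lemma exists_chi {L : Type*} [CommRing L] [Algebra ℂ L] (p s u F J x : L)
    (hx : x = s ^ 2 - u ^ 2 + p * F) (hH : u = x ^ 2 * F - (1 + 2 * s * x) * J - p * J ^ 2) :
    ∃ χ : C4 →ₐ[ℂ] L, χ pA = p ∧ χ sA = s ∧ χ uA = u ∧ χ FA = F ∧ χ JA = J ∧ χ xA = x := by
  let χ : C4 →ₐ[ℂ] L := aeval ![-2 * x ^ 2 * (u + s) + p * (1 - 2 * x * J),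
    s + 2 * x * J * u + J ^ 2 * p + x ^ 2 * F, F * (1 + 2 * x * J) + 2 * J ^ 2 * (u - s),
    u + 2 * x * J * s + J ^ 2 * p - x ^ 2 * F]
  have h0 : χ (X 0) = -2 * x ^ 2 * (u + s) + p * (1 - 2 * x * J) := by simp [χ]
  have h1 : χ (X 1) = s + 2 * x * J * u + J ^ 2 * p + x ^ 2 * F := by simp [χ]
  have h2 : χ (X 2) = F * (1 + 2 * x * J) + 2 * J ^ 2 * (u - s) := by simp [χ]
  have h3 : χ (X 3) = u + 2 * x * J * s + J ^ 2 * p - x ^ 2 * F := by simp [χ]
  have ex : χ xA = x := by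
    simp only [xA, map_add, map_sub, map_mul, map_pow, h0, h1, h2, h3]
    linear_combination -hx
  have eJ : χ JA = J := by
    simp only [JA, map_neg, h3]
    linear_combination -hH
  refine ⟨χ, ?_, ?_, ?_, ?_, eJ, ex⟩
  · simp only [pA, map_add, map_mul, map_pow, map_one, map_ofNat, h0, h1, h3, ex, eJ]; ring
  · simp only [sA, map_sub, map_mul, map_pow, map_ofNat, h0, h1, h2, h3, ex, eJ]; ring
  · simp only [uA, map_add, map_sub, map_mul, map_pow, map_ofNat, h0, h1, h2, h3, ex, eJ]; ring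
  · simp only [FA, map_sub, map_mul, map_pow, map_one, map_ofNat, h1, h2, h3, ex, eJ]; ring

/-- `x z - y (y + 1) - p u` in the variables `p, x, y, z, u`. -/
noncomputable def r1 : C5 := X 1 * X 3 - X 2 * (X 2 + 1) - X 0 * X 4

abbrev B1 := Q (Ideal.span {r1})

noncomputable def phi10 : C5 →ₐ[ℂ] C4 := aeval ![pA, xA, yA, zA, uA]

@[simp] lemma phi10_0 : phi10 (X 0) = pA := by simp [phi10]
@[simp] lemma phi10_1 : phi10 (X 1) = xA := by simp [phi10]
@[simp] lemma phi10_2 : phi10 (X 2) = yA := by simp [phi10]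
@[simp] lemma phi10_3 : phi10 (X 3) = zA := by simp [phi10]
@[simp] lemma phi10_4 : phi10 (X 4) = uA := by simp [phi10]

lemma phi10_r1 : phi10 r1 = 0 := by
  simp [r1]; linear_combination rel_A

lemma not_X0_dvd_r1 : ¬ (X 0 : C5) ∣ r1 := by
  intro h
  have h1 := map_dvd (aeval (R := ℂ) ![(0 : ℂ), 0, 1, 0, 0]) h
  simp [r1] at h1

lemma mem_of_phi10 (a : C5) (ha : phi10 a = 0) : a ∈ Ideal.span {r1} := by
  refine mem_of_loc (k := ℂ) (regMod_of_prime X_prime not_X0_dvd_r1) a ?_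
  intro L _ _ θ i hI hi
  have hq := hI _ (Ideal.subset_span rfl)
  simp only [r1, map_sub, map_mul, map_add, map_one] at hq
  set p := θ (X 0) with hp
  set x := θ (X 1) with hx
  set y := θ (X 2) with hy
  set z := θ (X 3) with hz
  set u := θ (X 4) with hu
  obtain ⟨s, hs⟩ : ∃ s, s = z - x ^ 2 - x * u ^ 2 := ⟨_, rfl⟩
  obtain ⟨χ, h1, h2, h3, h4, h5, h6⟩ := exists_chi p s u (i * (x - s ^ 2 + u ^ 2))
    (i * (y - s * x)) x (by linear_combination (-(x - s ^ 2 + u ^ 2)) * hi) (by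
      linear_combination (-i) * hq - (i * x) * hs + (-u + i * (y - s * x) ^ 2) * hi)
  have : θ = χ.comp phi10 := by
    apply algHom_ext
    intro j
    fin_cases j
    · simp [h1, hp]
    · simp [h6, hx]
    · simp [yA, h1, h2, h5, h6, ← hy]; linear_combination (-(y - s * x)) * hi
    · simp [zA, h2, h3, h6, ← hz]; linear_combination -hs
    · simp [h3, hu]
  rw [this, AlgHom.comp_apply, ha, map_zero]

noncomputable def phi1 : B1 →ₐ[ℂ] C4 := liftQ _ phi10 (vanish_span_one _ _ phi10_r1)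

@[simp] lemma phi1_mk (a : C5) : phi1 (mkQ _ a) = phi10 a := rfl

lemma phi1_injective : Function.Injective phi1 := liftQ_injective _ _ _ mem_of_phi10

noncomputable def pi1 : B1 := mkQ _ (X 0)

lemma phi1_pi : phi1 pi1 = pA := phi10_0

lemma mem_Loc_phi1 (t : C4) : t ∈ Loc phi1 pi1 := by
  have hs : sA = phi1 (mkQ _ (X 3 - X 1 * (X 1 + X 4 ^ 2))) := by simp [zA]
  refine mem_of_gens (Loc phi1 pi1) (AlgHom.id ℂ C4) ?_ ?_ ?_ ?_ ?_ t
  · exact ⟨0, pi1, by simp [phi1_pi]⟩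
  · exact ⟨0, _, by rw [pow_zero, one_mul]; exact hs⟩
  · exact ⟨0, mkQ _ (X 4), by simp⟩
  · refine ⟨1, mkQ _ (X 1 - (X 3 - X 1 * (X 1 + X 4 ^ 2)) ^ 2 + X 4 ^ 2), ?_⟩
    simp [phi1_pi, zA]
    linear_combination -xA_eq
  · refine ⟨1, mkQ _ (X 2 - (X 3 - X 1 * (X 1 + X 4 ^ 2)) * X 1), ?_⟩
    simp [phi1_pi, zA, yA]

lemma FA_not_mem : FA ∉ phi1.range := by
  rintro ⟨b, hb⟩
  obtain ⟨c, rfl⟩ := mkQ_surjective _ b
  let e0 : C4 →ₐ[ℂ] ℂ := aeval ![0, 0, 0, 0]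
  let e1 : C4 →ₐ[ℂ] ℂ := aeval ![0, 0, 1, 0]
  have : e0.comp phi10 = e1.comp phi10 := by
    apply algHom_ext
    intro j
    fin_cases j <;> simp [e0, e1, pA, xA, yA, zA, uA, sA, JA]
  have h := DFunLike.congr_fun this c
  have hb' : phi10 c = FA := hb
  simp [hb', e0, e1, FA, xA, JA] at h

/-- Reduction modulo `p` of an element of `p A` vanishes on the plane `x = s ^ 2 - u ^ 2`. -/
lemma dvd_of_pA_dvd (c : C5) (h : pA ∣ phi10 c) :
    ∃ m : C3, iota0 1 (ev0 c) = (X 0 - X 1 ^ 2 + X 2 ^ 2) * m := by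
  obtain ⟨χ, h1, h2, h3, h4, h5, h6⟩ := exists_chi (0 : C3) (X 1) (X 2) (4 * X 1 ^ 2 * X 2)
    (-(1 - 2 * X 1 * (X 1 ^ 2 - X 2 ^ 2)) * X 2) (X 1 ^ 2 - X 2 ^ 2) (by ring) (by ring)
  let evZ : C3 →ₐ[ℂ] C3 := aeval ![X 1 ^ 2 - X 2 ^ 2, X 1, X 2]
  have e : χ.comp phi10 = evZ.comp ((iota0 1).comp ev0) := by
    apply algHom_ext
    intro j
    fin_cases j
    · simp [h1]
    · simp [h6, evZ]
    · simp [yA, h1, h2, h6, evZ]; ring
    · simp [zA, h2, h3, h6, evZ]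
    · simp [h3, evZ]
  have h0 : evZ (iota0 1 (ev0 c)) = 0 := by
    have := DFunLike.congr_fun e c
    simp only [AlgHom.comp_apply] at this
    obtain ⟨t, ht⟩ := h
    rw [← this, ht, map_mul, h1, zero_mul]
  have := sub_subst_mem (Ideal.span {(X 0 - X 1 ^ 2 + X 2 ^ 2 : C3)}) evZ (by
    intro j
    fin_cases j
    · apply Ideal.subset_span; simp [evZ]; ring
    · simp [evZ]
    · simp [evZ]) (iota0 1 (ev0 c))
  rw [h0, sub_zero, Ideal.mem_span_singleton] at this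
  exact this

theorem pA_not_coord (e : C4 ≃ₐ[ℂ] C4) : e pA ≠ X 0 := by
  intro he
  let φ : B1 →ₐ[ℂ] C4 := (e : C4 →ₐ[ℂ] C4).comp phi1
  have hφ : ∀ b, φ b = e (phi1 b) := fun b => rfl
  have hφi : Function.Injective φ := e.injective.comp phi1_injective
  have hφπ : φ pi1 = X 0 := by rw [hφ, phi1_pi, he]
  have hLoc : ∀ t, t ∈ Loc φ pi1 := by
    intro t
    obtain ⟨n, b, hb⟩ := mem_Loc_phi1 (e.symm t)
    exact ⟨n, b, by rw [hφ, hφ, ← hb]; simp⟩
  obtain ⟨i, hi0, hi⟩ : ∃ i : Fin 4, i ≠ 0 ∧ X i ∉ φ.range := by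
    by_contra hcon
    push Not at hcon
    apply FA_not_mem
    have : (AlgHom.id ℂ C4) (e FA) ∈ φ.range := by
      refine map_mem_of_X φ.range (AlgHom.id ℂ C4) (fun j => ?_) _
      by_cases hj : j = 0
      · subst hj; exact ⟨pi1, hφπ⟩
      · exact hcon j hj
    obtain ⟨b, hb⟩ := this
    exact ⟨b, e.injective hb⟩
  obtain ⟨j, hj0, hji⟩ : ∃ j : Fin 4, j ≠ 0 ∧ j ≠ i := by
    by_cases h : i = 1
    · exact ⟨2, by decide, by subst h; decide⟩
    · exact ⟨1, by decide, fun h' => h h'.symm⟩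
  obtain ⟨ρ, hρ, hρs, hρk⟩ := exists_rho (Ideal.span {r1}) (Ideal.span {qc 1}) (by
    rw [Ideal.map_span, Set.image_singleton]
    simp [r1, qc])
  have hρk' : ∀ b : B1, ρ b = 0 ↔ pi1 ∣ b := hρk
  have hπ0 : pi1 ≠ 0 := fun h => X_ne_zero (R := ℂ) (0 : Fin 4) (by rw [← hφπ, h, map_zero])
  have hπu : ¬ IsUnit pi1 := fun hu => by
    have : ρ 1 = 0 := (hρk' 1).2 hu.dvd
    rw [map_one] at this
    exact one_ne_zero this
  let D : Derivation ℂ C4 C4 := pderiv j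
  have hD0 : D (X 0) = 0 := pderiv_X_of_ne hj0.symm
  have hDi : D (X i) = 0 := pderiv_X_of_ne hji.symm
  have hDj : D (X j) = 1 := pderiv_X_self j
  have hne : ∃ b, D (φ b) ≠ 0 := by
    obtain ⟨n, b, hb⟩ := hLoc (X j)
    refine ⟨b, ?_⟩
    rw [← hb, hφπ, Derivation.leibniz, Derivation.leibniz_pow, hD0, hDj]
    simp
  obtain ⟨D1, hD1, hD10, hD1k⟩ := reduction φ hφi pi1 hπ0 ρ hρs hρk' D
    (by rw [hφπ, hD0]) (fun b => hLoc _) (fun b => lnd_pderiv' j _) hne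
  obtain ⟨n, l, b, hb, hnb⟩ := exists_lead hφi hπ0 hπu (X_ne_zero i) (hLoc (X i))
  rw [hφπ] at hnb
  have hX0 : (X 0 : C4) ≠ 0 := X_ne_zero _
  have hlt : l < n := by
    by_contra hle
    obtain ⟨d, rfl⟩ := Nat.exists_eq_add_of_le (not_lt.1 hle)
    apply hi
    refine ⟨pi1 ^ d * b, ?_⟩
    rw [pow_add, mul_assoc] at hnb
    have := mul_left_cancel₀ (pow_ne_zero _ hX0) hnb
    change φ (pi1 ^ d * b) = X i
    rw [map_mul, map_pow, hφπ, this]
  obtain ⟨d, rfl⟩ := Nat.exists_eq_add_of_lt hlt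
  have hb2 : φ b = X 0 ^ (d + 1) * X i := by
    apply mul_left_cancel₀ (pow_ne_zero l hX0)
    rw [← hnb]; ring
  have hDb : D (φ b) = 0 := by
    rw [hb2, Derivation.leibniz, Derivation.leibniz_pow, hD0, hDi]; simp
  obtain ⟨c, rfl⟩ := mkQ_surjective _ b
  have hdvd : pA ∣ phi10 c := by
    refine ⟨e.symm (X 0 ^ d * X i), e.injective ?_⟩
    have : e (phi10 c) = X 0 ^ (d + 1) * X i := hb2
    rw [this, map_mul, he, AlgEquiv.apply_symm_apply]; ring
  obtain ⟨m, hm⟩ := dvd_of_pA_dvd c hdvd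
  refine surf_rigid D1 hD1 hD10 (ρ (mkQ _ c)) (fun h => hb ((hρk' _).1 h)) (hD1k _ hDb) m ?_
  rw [hρ, iota_mk, hm]

end Vale.Agent.P295
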