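import Vale.Agent.P295.Cone

/-! Degeneration of `x z = y (y + 1)` to the cone. -/

namespace Vale.Agent.P295

open MvPolynomial

/-- Set the first variable to zero. -/
noncomputable def ev0 {n : ℕ} : MvPolynomial (Fin (n + 1)) ℂ →ₐ[ℂ] MvPolynomial (Fin n) ℂ :=
  aeval (Fin.cons 0 X)

@[simp] lemma ev0_zero {n : ℕ} : ev0 (X 0 : MvPolynomial (Fin (n + 1)) ℂ) = 0 := by simp [ev0]

lemma ev0_succ {n : ℕ} (i : Fin n) : ev0 (X i.succ : MvPolynomial (Fin (n + 1)) ℂ) = X i := by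
  simp [ev0]

lemma ev0_surjective {n : ℕ} : Function.Surjective (ev0 (n := n)) := by
  intro a
  refine ⟨rename Fin.succ a, ?_⟩
  have : (ev0 (n := n)).comp (rename Fin.succ) = AlgHom.id ℂ _ := by
    apply algHom_ext; intro i; simp [ev0_succ]
  exact DFunLike.congr_fun this a

lemma ev0_eq_zero {n : ℕ} (c : MvPolynomial (Fin (n + 1)) ℂ) : ev0 c = 0 ↔ X 0 ∣ c := by
  constructor
  · intro h
    have := sub_subst_mem (Ideal.span {(X 0 : MvPolynomial (Fin (n + 1)) ℂ)})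
      ((rename Fin.succ).comp ev0) (by
        intro i
        refine Fin.cases ?_ (fun j => ?_) i
        · simp
        · simp [ev0_succ]) c
    rw [AlgHom.comp_apply, h, map_zero, sub_zero, Ideal.mem_span_singleton] at this
    exact this
  · rintro ⟨e, rfl⟩
    simp

theorem exists_rho {n : ℕ} (I : Ideal (MvPolynomial (Fin (n + 1)) ℂ))
    (I' : Ideal (MvPolynomial (Fin n) ℂ)) (h : I.map ev0 = I') :
    ∃ ρ : Q I →ₐ[ℂ] Q I',
      (∀ c, ρ (mkQ I c) = mkQ I' (ev0 c)) ∧ Function.Surjective ρ ∧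
      ∀ b, ρ b = 0 ↔ mkQ I (X 0) ∣ b := by
  let ρ : Q I →ₐ[ℂ] Q I' :=
    liftQ I ((mkQ I').comp ev0) (fun a ha => by
      rw [AlgHom.comp_apply, mkQ_eq_zero, ← h]
      exact Ideal.mem_map_of_mem _ ha)
  have hρ : ∀ c, ρ (mkQ I c) = mkQ I' (ev0 c) := fun c => rfl
  refine ⟨ρ, hρ, fun a => ?_, fun b => ?_⟩
  · obtain ⟨a, rfl⟩ := mkQ_surjective _ a
    obtain ⟨c, rfl⟩ := ev0_surjective a
    exact ⟨_, hρ c⟩
  · obtain ⟨c, rfl⟩ := mkQ_surjective _ b
    constructor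
    · intro hc
      rw [hρ, mkQ_eq_zero, ← h, Ideal.mem_map_iff_of_surjective _ ev0_surjective] at hc
      obtain ⟨a, ha, hac⟩ := hc
      obtain ⟨e, he⟩ := (ev0_eq_zero (c - a)).1 (by rw [map_sub, hac, sub_self])
      refine ⟨mkQ I e, ?_⟩
      rw [← map_mul, ← he, map_sub, mkQ_eq_zero.2 ha, sub_zero]
    · rintro ⟨e, he⟩
      rw [he, map_mul, hρ]; simp

@[simp] lemma ev0_51 : ev0 (X 1 : C5) = X 0 := ev0_succ 0
@[simp] lemma ev0_52 : ev0 (X 2 : C5) = X 1 := ev0_succ 1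
@[simp] lemma ev0_53 : ev0 (X 3 : C5) = X 2 := ev0_succ 2
@[simp] lemma ev0_54 : ev0 (X 4 : C5) = X 3 := ev0_succ 3
@[simp] lemma ev0_41 : ev0 (X 1 : C4) = X 0 := ev0_succ 0
@[simp] lemma ev0_42 : ev0 (X 2 : C4) = X 1 := ev0_succ 1
@[simp] lemma ev0_43 : ev0 (X 3 : C4) = X 2 := ev0_succ 2

/-- `x z - y (y + τ)` in the variables `τ, x, y, z, u`. -/
noncomputable def r2 : C5 := X 1 * X 3 - X 2 * (X 2 + X 0)

abbrev B2 := Q (Ideal.span {r2})

lemma mkO_rel (c : ℂ) : mkO c (X 0) * mkO c (X 2) = mkO c (X 1) * (mkO c (X 1) + algebraMap ℂ _ c) := by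
  have : mkO c (qc c) = 0 := mkQ_eq_zero.2 (Ideal.subset_span rfl)
  simp only [qc, map_sub, map_mul, map_add, algHom_C] at this
  linear_combination this

/-- The Rees embedding. -/
noncomputable def phi20 : C5 →ₐ[ℂ] Polynomial (O 1) :=
  aeval ![Polynomial.X, Polynomial.C (mkO 1 (X 0)), Polynomial.X * Polynomial.C (mkO 1 (X 1)),
    Polynomial.X ^ 2 * Polynomial.C (mkO 1 (X 2)), Polynomial.X * Polynomial.C (mkO 1 (X 3))]

@[simp] lemma phi20_0 : phi20 (X 0) = Polynomial.X := by simp [phi20]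
@[simp] lemma phi20_1 : phi20 (X 1) = Polynomial.C (mkO 1 (X 0)) := by simp [phi20]
@[simp] lemma phi20_2 : phi20 (X 2) = Polynomial.X * Polynomial.C (mkO 1 (X 1)) := by
  simp only [phi20, aeval_X]; rfl
@[simp] lemma phi20_3 : phi20 (X 3) = Polynomial.X ^ 2 * Polynomial.C (mkO 1 (X 2)) := by
  simp only [phi20, aeval_X]; rfl
@[simp] lemma phi20_4 : phi20 (X 4) = Polynomial.X * Polynomial.C (mkO 1 (X 3)) := by
  simp only [phi20, aeval_X]; rfl

lemma phi20_r2 : phi20 r2 = 0 := by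
  have h := congrArg Polynomial.C (mkO_rel 1)
  simp only [map_mul, map_add, map_one] at h
  simp only [r2, map_sub, map_mul, map_add, phi20_0, phi20_1, phi20_2, phi20_3]
  linear_combination (Polynomial.X ^ 2) * h

lemma not_X0_dvd_r2 : ¬ (X 0 : C5) ∣ r2 := by
  intro h
  have h1 := map_dvd (aeval (R := ℂ) ![(0 : ℂ), 0, 1, 0, 0]) h
  simp [r2] at h1

lemma mem_of_phi20 (a : C5) (ha : phi20 a = 0) : a ∈ Ideal.span {r2} := by
  refine mem_of_loc (k := ℂ) (regMod_of_prime X_prime not_X0_dvd_r2) a ?_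
  intro L _ _ θ i hI hi
  have hq := hI _ (Ideal.subset_span rfl)
  simp only [r2, map_sub, map_mul, map_add] at hq
  let ψ0 : C4 →ₐ[ℂ] L := aeval ![θ (X 1), i * θ (X 2), i ^ 2 * θ (X 3), i * θ (X 4)]
  let ψ1 : O 1 →ₐ[ℂ] L := liftQ _ ψ0 (vanish_span_one _ _ (by
      simp [ψ0, qc]
      linear_combination i ^ 2 * hq + i * θ (X 2) * hi))
  have hψ1 : ∀ c, ψ1 (mkO 1 c) = ψ0 c := fun c => rfl
  let ψ : Polynomial (O 1) →ₐ[ℂ] L := Polynomial.aevalTower ψ1 (θ (X 0))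
  have : θ = ψ.comp phi20 := by
    apply algHom_ext
    intro j
    fin_cases j
    · simp [ψ]
    · simp [ψ, hψ1, ψ0]
    · simp [ψ, hψ1, ψ0, -Polynomial.X_mul_C]; linear_combination (-θ (X 2)) * hi
    · simp [ψ, hψ1, ψ0, -Polynomial.X_pow_mul_C]
      linear_combination (-θ (X 3) * (θ (X 0) * i + 1)) * hi
    · simp [ψ, hψ1, ψ0, -Polynomial.X_mul_C]; linear_combination (-θ (X 4)) * hi
  rw [this, AlgHom.comp_apply, ha, map_zero]

noncomputable def phi2 : B2 →ₐ[ℂ] Polynomial (O 1) :=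
  liftQ _ phi20 (vanish_span_one _ _ phi20_r2)

@[simp] lemma phi2_mk (a : C5) : phi2 (mkQ _ a) = phi20 a := rfl

lemma phi2_injective : Function.Injective phi2 := liftQ_injective _ _ _ mem_of_phi20

/-- The class of the Rees parameter. -/
noncomputable def tau2 : B2 := mkQ _ (X 0)

lemma phi2_tau : phi2 tau2 = Polynomial.X := phi20_0

lemma mem_Loc_phi2 (t : Polynomial (O 1)) : t ∈ Loc phi2 tau2 := by
  have hC : ∀ a : O 1, Polynomial.C a ∈ Loc phi2 tau2 := by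
    intro a
    obtain ⟨c, rfl⟩ := mkQ_surjective _ a
    let θ : C4 →ₐ[ℂ] Polynomial (O 1) :=
      (IsScalarTower.toAlgHom ℂ (O 1) (Polynomial (O 1))).comp (mkO 1)
    have hθ : ∀ a, θ a = Polynomial.C (mkO 1 a) := fun a => rfl
    have : θ c ∈ Loc phi2 tau2 := by
      refine map_mem_of_X (Loc phi2 tau2) θ (fun j => ?_) c
      rw [hθ, mem_Loc, phi2_tau]
      fin_cases j
      · exact ⟨0, mkQ _ (X 1), by simp⟩
      · exact ⟨1, mkQ _ (X 2), by simp⟩
      · exact ⟨2, mkQ _ (X 3), by simp⟩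
      · exact ⟨1, mkQ _ (X 4), by simp⟩
    exact this
  have hX : Polynomial.X ∈ Loc phi2 tau2 := by
    rw [← phi2_tau]; exact map_mem_Loc _ _ _
  induction t using Polynomial.induction_on with
  | C a => exact hC a
  | add p q hp hq => exact add_mem hp hq
  | monomial n a h => exact mul_mem (hC a) (pow_mem hX _)

/-- The chart of the Rees family, in the variables `τ, x, s, u`. -/
noncomputable def chart2 : C5 →ₐ[ℂ] C4 :=
  aeval ![X 0, X 1, X 1 * X 2, X 0 * X 2 + X 1 * X 2 ^ 2, X 3]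

lemma ev0_chart2 (c : C5) : ev0 (chart2 c) = iota0 0 (ev0 c) := by
  have : ev0.comp chart2 = (iota0 0).comp ev0 := by
    apply algHom_ext
    intro j
    fin_cases j <;> simp [chart2]
  exact DFunLike.congr_fun this c

lemma chart2_dvd (g : O 1) (m : C3) (hg : iota 1 g = (X 0 - X 1 ^ 2 + X 2 ^ 2) * m) (n j : ℕ)
    (c : C5) (hnb : Polynomial.X ^ n * Polynomial.C g = Polynomial.X ^ j * phi20 c) :
    chart2 c ∈ Ideal.span {(X 0 ^ 2 * X 1 - X 2 ^ 2 + X 3 ^ 2 : C4)} := by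
  refine mem_of_loc (k := ℂ) (π := X 0) (regMod_of_prime X_prime ?_) _ ?_
  · intro h
    have h1 := map_dvd (aeval (R := ℂ) ![(0 : ℂ), 0, 1, 0]) h
    simp at h1
  intro L _ _ θ i hI hi
  have hq := hI _ (Ideal.subset_span rfl)
  simp only [map_sub, map_mul, map_add, map_pow] at hq
  let ψ0 : C3 →ₐ[ℂ] L := aeval ![θ (X 1), i * θ (X 2), i * θ (X 3)]
  let ψ : Polynomial (O 1) →ₐ[ℂ] L := Polynomial.aevalTower (ψ0.comp (iota 1)) (θ (X 0))
  have hio : ∀ a, iota 1 (mkO 1 a) = iota0 1 a := fun a => rfl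
  have h1 : θ.comp chart2 = ψ.comp phi20 := by
    apply algHom_ext
    intro j
    fin_cases j
    · simp [ψ, chart2]
    · simp [ψ, chart2, hio, ψ0]
    · simp [ψ, chart2, hio, ψ0, -Polynomial.X_mul_C]
      linear_combination (-θ (X 1) * θ (X 2)) * hi
    · simp [ψ, chart2, hio, ψ0, -Polynomial.X_pow_mul_C]
      linear_combination (-θ (X 0) * θ (X 2) - θ (X 1) * θ (X 2) ^ 2 * (θ (X 0) * i + 1)) * hi
    · simp [ψ, chart2, hio, ψ0, -Polynomial.X_mul_C]
      linear_combination (-θ (X 3)) * hi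
  have h2 : θ (chart2 c) = ψ (phi20 c) := DFunLike.congr_fun h1 c
  have h3 := congrArg ψ hnb
  have h4 : ψ (Polynomial.C g) = 0 := by
    have : θ (X 1) - (i * θ (X 2)) ^ 2 + (i * θ (X 3)) ^ 2 = 0 := by
      linear_combination i ^ 2 * hq - θ (X 1) * (θ (X 0) * i + 1) * hi
    simp [ψ, hg, ψ0, this]
  rw [map_mul, map_mul, h4, mul_zero, ← h2] at h3
  have h5 : ψ (Polynomial.X ^ j) * i ^ j = 1 := by
    simp [ψ]; rw [← mul_pow, hi, one_pow]
  linear_combination (-i ^ j) * h3 - θ (chart2 c) * h5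

/-- No nonzero locally nilpotent derivation of `O 1` kills a nonzero function vanishing on the
plane `x = s ^ 2 - u ^ 2`. -/
theorem surf_rigid (D : Derivation ℂ (O 1) (O 1)) (hD : LND D) (hD0 : D ≠ 0) (g : O 1)
    (hg0 : g ≠ 0) (hDg : D g = 0) (m : C3)
    (hg : iota 1 g = (X 0 - X 1 ^ 2 + X 2 ^ 2) * m) : False := by
  obtain ⟨D1, hD1, hD1X, hD1C⟩ := exists_polyExt D hD
  obtain ⟨ρ, hρ, hρs, hρk⟩ := exists_rho (Ideal.span {r2}) (Ideal.span {qc 0}) (by
    rw [Ideal.map_span, Set.image_singleton]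
    simp [r2, qc])
  have hρk' : ∀ b : B2, ρ b = 0 ↔ tau2 ∣ b := hρk
  have hτ0 : tau2 ≠ 0 := fun h =>
    Polynomial.X_ne_zero (R := O 1) (by rw [← phi2_tau, h, map_zero])
  have hτu : ¬ IsUnit tau2 := fun hu => by
    have : ρ 1 = 0 := (hρk' 1).2 hu.dvd
    rw [map_one] at this
    exact one_ne_zero this
  have hne : ∃ b, D1 (phi2 b) ≠ 0 := by
    by_contra hne
    push Not at hne
    apply hD0
    ext a
    obtain ⟨n, b, hb⟩ := mem_Loc_phi2 (Polynomial.C a)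
    have h1 := hne b
    rw [← hb, phi2_tau, Derivation.leibniz, Derivation.leibniz_pow, hD1X, hD1C] at h1
    simpa using h1
  obtain ⟨D2, hD2, hD20, hD2k⟩ := reduction phi2 phi2_injective tau2 hτ0 ρ hρs hρk' D1
    (by rw [phi2_tau, hD1X]) (fun b => mem_Loc_phi2 _) (fun b => hD1 _) hne
  obtain ⟨n, j, b, hb, hnb⟩ := exists_lead phi2_injective hτ0 hτu
    (Polynomial.C_ne_zero.2 hg0) (mem_Loc_phi2 (Polynomial.C g))
  rw [phi2_tau] at hnb
  have hDb : D1 (phi2 b) = 0 := by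
    have h1 := congrArg D1 hnb
    rw [Derivation.leibniz, Derivation.leibniz, Derivation.leibniz_pow, Derivation.leibniz_pow,
      hD1X, hD1C, hDg] at h1
    simpa using h1
  obtain ⟨c, rfl⟩ := mkQ_surjective _ b
  obtain ⟨e, he⟩ := Ideal.mem_span_singleton'.1 (chart2_dvd g m hg n j c hnb)
  refine cone_rigid D2 hD2 hD20 (ρ (mkQ _ c)) (fun h => hb ((hρk' _).1 h))
    (hD2k _ hDb) (ev0 e) ?_
  rw [hρ, iota_mk, ← ev0_chart2, ← he]
  simp
  ring

end Vale.Agent.P295
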